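import Vale.Agent.Lib.P045.Fast.Check

/-!
Finite facts on the constants of the checker, each verified by evaluation in the kernel.
-/
namespace Vale.Agent.Lib.P045.Fast

/-- All numbers `b + x` with `x < 2 ^ d` satisfy the test. -/
noncomputable def allB (f : Nat → Bool) (d : Nat) : Nat → Bool :=
  Nat.rec (fun b => f b) (fun d ih b => Bool.rec false (ih (Nat.add b (Nat.pow 2 d))) (ih b)) d

/-- All numbers below `n` satisfy the test. -/
noncomputable def allN (f : Nat → Bool) (n : Nat) : Bool :=
  Nat.rec true (fun i ih => Bool.rec false ih (f i)) n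

/-- Is the bit `x` of `n` set exactly when `y` is `0`? -/
noncomputable def bitZ (n x y : Nat) : Bool :=
  Bool.rec (Nat.beq (Nat.land (Nat.shiftRight n x) 1) 0)
    (Nat.beq (Nat.land (Nat.shiftRight n x) 1) 1) (Nat.beq y 0)

/-- The bits of `n` below `6561` are set exactly at the codes with digit `0` at stride `s`. -/
noncomputable def cylOK (n s : Nat) : Bool :=
  allB (fun x => Bool.rec (bitZ n x (Nat.mod (Nat.div x s) 9)) true (Nat.ble 6561 x)) 13 0

theorem c0_chk : cylOK C0 1 = true := by decide +kernel
theorem c1_chk : cylOK C1 9 = true := by decide +kernel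
theorem c2_chk : cylOK C2 81 = true := by decide +kernel
theorem c3_chk : cylOK C3 729 = true := by decide +kernel

/-- The union of the first `l` translates of the cylinder `C` at stride `s`. -/
noncomputable def lowOr (C s l : Nat) : Nat :=
  Nat.rec 0 (fun i ih => Nat.lor ih (Nat.shiftLeft C (Nat.mul i s))) l

/-- The mask `Bq` is the union of the low translates and of the translate `8`. -/
noncomputable def bqOK (s R E C : Nat) : Bool :=
  allN (fun l => Nat.beq (Bq s R E l) (Nat.lor (lowOr C s l) (Nat.shiftLeft C (Nat.mul 8 s)))) 9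

theorem bq0_chk : bqOK 1 Rp0 E0 C0 = true := by decide +kernel
theorem bq1_chk : bqOK 9 Rp1 E1 C1 = true := by decide +kernel
theorem bq2_chk : bqOK 81 Rp2 E2 C2 = true := by decide +kernel
theorem bq3_chk : bqOK 729 Rp3 E3 C3 = true := by decide +kernel

/-- The translate of the cylinder of column `q`. -/
def cylQ (q l : Nat) : Nat :=
  Nat.shiftLeft (Nat.land (Nat.shiftRight CC (Nat.mul q 6561)) ALL) (Nat.mul l (Nat.pow 9 q))

theorem all_eq : Nat.beq ALL (Nat.sub (Nat.shiftLeft 1 6561) 1) = true := by decide +kernel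

theorem cc0 : Nat.beq (Nat.land (Nat.shiftRight CC (Nat.mul 0 6561)) ALL) C0 = true := by decide +kernel
theorem cc1 : Nat.beq (Nat.land (Nat.shiftRight CC (Nat.mul 1 6561)) ALL) C1 = true := by decide +kernel
theorem cc2 : Nat.beq (Nat.land (Nat.shiftRight CC (Nat.mul 2 6561)) ALL) C2 = true := by decide +kernel
theorem cc3 : Nat.beq (Nat.land (Nat.shiftRight CC (Nat.mul 3 6561)) ALL) C3 = true := by decide +kernel

/-- The vertex mask `SV` agrees below `6561` with a translated cylinder. -/
noncomputable def svOK (v : Nat) : Bool :=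
  Nat.beq (Nat.land (SV v) ALL)
    (Nat.land (Nat.shiftLeft (Nat.land (Nat.shiftRight CC (Nat.mul (Nat.shiftRight v 3) 6561)) ALL)
      (Nat.mul (Nat.land v 7) (Nat.pow 9 (Nat.shiftRight v 3)))) ALL)

theorem sv_chk : allN svOK 32 = true := by decide +kernel

theorem not8_eq :
    Nat.beq NOT8 (Nat.xor ALL (Nat.lor (Nat.shiftLeft C0 8) (Nat.lor (Nat.shiftLeft C1 72)
      (Nat.lor (Nat.shiftLeft C2 648) (Nat.shiftLeft C3 5832))))) = true := by decide +kernel

theorem not8_lt : Nat.ble (Nat.succ NOT8) (Nat.shiftLeft 1 6561) = true := by decide +kernel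

/-- The nibble `d` of `τ`. -/
def nib (τ d : Nat) : Nat := Nat.land (Nat.shiftRight τ (Nat.mul d 4)) 15

/-- Is the nibble `d` of `τ` a digit, different from the other nibbles? -/
noncomputable def nibOK (τ d : Nat) : Bool :=
  Bool.rec false
    (allN (fun d' => Bool.rec true (Nat.beq d d') (Nat.beq (nib τ d) (nib τ d'))) 9)
    (Nat.ble (Nat.succ (nib τ d)) 9)

/-- The label map number `k` is injective on the digits, with digits as values. -/
noncomputable def tauOK (k : Nat) : Bool := allN (nibOK (tauAt k)) 9

theorem tau_chk : allB tauOK 10 0 = true := by decide +kernel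

/-- The exponent at `q` of the column permutation number `k`. -/
def sigE (k q : Nat) : Nat :=
  Nat.land (Nat.shiftRight SIGE (Nat.add (Nat.mul k 8) (Nat.mul q 2))) 3

/-- The column permutation number `k` is injective, and its strides are the powers of `9`. -/
noncomputable def sigOK (k : Nat) : Bool :=
  Bool.rec false
    (Bool.rec false
      (Bool.rec false
        (Bool.rec false
          (allN (fun q => allN (fun q' => Bool.rec true (Nat.beq q q')
            (Nat.beq (sigE k q) (sigE k q'))) 4) 4)
          (Nat.beq (Nat.shiftRight (sigAt k) 39) (Nat.pow 9 (sigE k 3))))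
        (Nat.beq (Nat.mod (Nat.shiftRight (sigAt k) 26) 8192) (Nat.pow 9 (sigE k 2))))
      (Nat.beq (Nat.mod (Nat.shiftRight (sigAt k) 13) 8192) (Nat.pow 9 (sigE k 1))))
    (Nat.beq (Nat.mod (sigAt k) 8192) (Nat.pow 9 (sigE k 0)))

theorem sig_chk : allN sigOK 32 = true := by decide +kernel

end Vale.Agent.Lib.P045.Fast
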