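import Mathlib

/-!
The covering game on `R`-partite hypergraphs, independent of any computation.
Tuples are coded by numbers: the label of the code `e` in column `q` is its `q`-th digit in base `D`.
The digit `D - 1` serves as a label that no edge of the current configuration uses.
-/
namespace Vale.Agent.Lib.P045.Fast

open Finset

/-- The digit of `e` at position `q` in base `D`. -/
def dg (D q e : ℕ) : ℕ := e / D ^ q % D

theorem dg_lt {D : ℕ} (hD : 0 < D) (q e : ℕ) : dg D q e < D := Nat.mod_lt _ hD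

/-- Weighted sum of a tuple over the first `R` columns. -/
def pk (D : ℕ) (τ : ℕ → ℕ) (R : ℕ) : ℕ := ∑ q ∈ Finset.range R, τ q * D ^ q

theorem dg_add_mul {D : ℕ} (hD : 0 < D) (x y p : ℕ) : dg D p (x + y * D ^ (p + 1)) = dg D p x := by
  unfold dg
  have h : x + y * D ^ (p + 1) = x + D ^ p * (D * y) := by ring
  rw [h, Nat.add_mul_div_left _ _ (by positivity), Nat.add_mul_mod_self_left]

theorem pk_lt {D : ℕ} (hD : 0 < D) (τ : ℕ → ℕ) (R : ℕ) (h : ∀ q < R, τ q < D) :
    pk D τ R < D ^ R := by
  induction R with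
  | zero => simp [pk]
  | succ R ih =>
    have h1 := ih (fun q hq => h q (by omega))
    have h2 := h R (by omega)
    unfold pk at h1 ⊢
    rw [Finset.sum_range_succ, pow_succ]
    have h3 : τ R * D ^ R ≤ (D - 1) * D ^ R := Nat.mul_le_mul_right _ (by omega)
    have h4 : (D - 1) * D ^ R + D ^ R = D ^ R * D := by
      obtain ⟨d, rfl⟩ : ∃ d, D = d + 1 := ⟨D - 1, by omega⟩
      simp only [Nat.add_sub_cancel]
      ring
    omega

theorem dg_pk {D : ℕ} (hD : 0 < D) (τ : ℕ → ℕ) (R : ℕ) (h : ∀ q < R, τ q < D) :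
    ∀ p < R, dg D p (pk D τ R) = τ p := by
  induction R with
  | zero => intro p hp; omega
  | succ R ih =>
    intro p hp
    have hsum : pk D τ (R + 1) = pk D τ R + τ R * D ^ R := by
      unfold pk; rw [Finset.sum_range_succ]
    rw [hsum]
    by_cases hpR : p = R
    · subst hpR
      have h1 := pk_lt hD τ p (fun q hq => h q (by omega))
      unfold dg
      rw [mul_comm (τ p), Nat.add_mul_div_left _ _ (by positivity), Nat.div_eq_of_lt h1,
        zero_add, Nat.mod_eq_of_lt (h p (by omega))]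
    · have hlt : p < R := by omega
      obtain ⟨k, rfl⟩ : ∃ k, R = p + 1 + k := ⟨R - (p + 1), by omega⟩
      have h2 : τ (p + 1 + k) * D ^ (p + 1 + k) = (τ (p + 1 + k) * D ^ k) * D ^ (p + 1) := by
        rw [pow_add]; ring
      rw [h2, dg_add_mul hD]
      exact ih (fun q hq => h q (by omega)) p hlt

section game

variable {R : ℕ} {α : Type*}

/-- The tuple of `α` described by a coded tuple under a column permutation and label maps. -/
def tup (D : ℕ) (π : Equiv.Perm (Fin R)) (φ : Fin R → ℕ → α) (e : ℕ) : Fin R → α :=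
  fun i => φ i (dg D (π i) e)

/-- The configuration `F` occurs in `H` through `(π, φ)`, different labels of `F` in a column going
to different vertices. -/
def Emb (D : ℕ) (H : Set (Fin R → α)) (π : Equiv.Perm (Fin R)) (φ : Fin R → ℕ → α)
    (F : List ℕ) : Prop :=
  (∀ e ∈ F, tup D π φ e ∈ H) ∧
    ∀ e ∈ F, ∀ e' ∈ F, ∀ i, φ i (dg D (π i) e) = φ i (dg D (π i) e') →
      dg D (π i) e = dg D (π i) e'

/-- The configuration `F` does not occur in `H`. -/
def Ref (D : ℕ) (H : Set (Fin R → α)) (F : List ℕ) : Prop := ∀ π φ, ¬ Emb D H π φ F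

/-- Two tuples disjoint as edges. -/
def DisjT (a b : Fin R → α) : Prop := ∀ i, a i ≠ b i

/-- `H` has matching number at most `NU` and no cover with at most `SZ` vertices. -/
structure Bad (H : Set (Fin R → α)) (NU SZ : ℕ) : Prop where
  nu : ∀ L : List (Fin R → α), (∀ a ∈ L, a ∈ H) → L.Pairwise DisjT → L.length ≤ NU
  tau : ∀ C : Finset (Fin R × α), C.card ≤ SZ → ∃ e ∈ H, ∀ i, (i, e i) ∉ C

/-- The step of the game: from an occurrence of `F` in `H` and a small list `S` of vertices, build a
new edge that avoids `S`, meets every matching of size `NU`, and a map extending the occurrence.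
All labels of `F` are different from the digit `D - 1`, which is the label of the new vertices. -/
theorem step {D : ℕ} (hD : 0 < D) {H : Set (Fin R → α)} {NU SZ : ℕ} (hB : Bad H NU SZ)
    {F : List ℕ} {S : List (ℕ × ℕ)} (hlen : S.length ≤ SZ)
    (hg : ∀ e ∈ F, ∀ q < R, dg D q e ≠ D - 1) {π : Equiv.Perm (Fin R)} {φ : Fin R → ℕ → α}
    (hE : Emb D H π φ F) :
    ∃ (τ : ℕ → ℕ) (φ' : Fin R → ℕ → α),
      (∀ q < R, τ q < D) ∧
      (∀ q < R, τ q = D - 1 ∨ ∃ e ∈ F, τ q = dg D q e) ∧
      (∀ p ∈ S, p.1 < R → p.2 ≠ D - 1 → τ p.1 ≠ p.2) ∧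
      (∀ M : List ℕ, (∀ e ∈ M, e ∈ F) →
        M.Pairwise (fun a b => ∀ q < R, dg D q a ≠ dg D q b) → M.length = NU →
        ∃ e ∈ M, ∃ q < R, τ q = dg D q e) ∧
      Emb D H π φ' (pk D τ R :: F) := by
  classical
  -- the image of S
  let g : ℕ × ℕ → Option (Fin R × α) := fun v =>
    if hv : v.1 < R then
      some (π.symm ⟨v.1, hv⟩, φ (π.symm ⟨v.1, hv⟩) v.2)
    else none
  let C : Finset (Fin R × α) := (S.filterMap g).toFinset
  have hC : C.card ≤ SZ :=
    (List.toFinset_card_le _).trans ((List.length_filterMap_le _ _).trans hlen)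
  obtain ⟨h, hH, havoid⟩ := hB.tau C hC
  -- the new tuple
  let ex : ℕ → Prop := fun q => ∃ hq : q < R, ∃ e ∈ F,
    φ (π.symm ⟨q, hq⟩) (dg D q e) = h (π.symm ⟨q, hq⟩)
  let τ : ℕ → ℕ := fun q =>
    if hx : ex q then dg D q hx.choose_spec.choose else D - 1
  have τ_spec : ∀ q (hq : q < R),
      (τ q = D - 1 ∧ ¬ ∃ e ∈ F, φ (π.symm ⟨q, hq⟩) (dg D q e) = h (π.symm ⟨q, hq⟩)) ∨
      ∃ e ∈ F, τ q = dg D q e ∧ φ (π.symm ⟨q, hq⟩) (dg D q e) = h (π.symm ⟨q, hq⟩) := by
    intro q hq
    by_cases hx : ex q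
    · right
      have hs := hx.choose_spec.choose_spec
      refine ⟨_, hs.1, ?_, hs.2⟩
      show τ q = _
      simp only [τ, dif_pos hx]
    · left
      refine ⟨?_, fun hh => hx ⟨hq, hh⟩⟩
      simp only [τ, dif_neg hx]
  have τ_eq : ∀ q (hq : q < R), ∀ e ∈ F, φ (π.symm ⟨q, hq⟩) (dg D q e) = h (π.symm ⟨q, hq⟩) →
      τ q = dg D q e := by
    intro q hq e he heq
    rcases τ_spec q hq with ⟨_, hn⟩ | ⟨e', he', ht, heq'⟩
    · exact absurd ⟨e, he, heq⟩ hn
    · rw [ht]
      have := hE.2 e' he' e he (π.symm ⟨q, hq⟩)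
      simp only [Equiv.apply_symm_apply] at this
      exact this (by rw [heq', heq])
  have τ_lt : ∀ q < R, τ q < D := by
    intro q hq
    rcases τ_spec q hq with ⟨h1, _⟩ | ⟨e', he', ht, _⟩
    · omega
    · rw [ht]; exact dg_lt hD _ _
  -- the new map
  let φ' : Fin R → ℕ → α := fun i l => if l = D - 1 then h i else φ i l
  have hφ'F : ∀ e ∈ F, ∀ i, φ' i (dg D (π i) e) = φ i (dg D (π i) e) := by
    intro e he i
    have := hg e he (π i) (π i).2
    simp only [φ']
    rw [if_neg this]
  have hφ't : ∀ i, φ' i (τ (π i)) = h i := by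
    intro i
    rcases τ_spec (π i) (π i).2 with ⟨h1, _⟩ | ⟨e', he', ht, heq⟩
    · simp [φ', h1]
    · have := hg e' he' (π i) (π i).2
      simp only [φ']
      rw [ht, if_neg this]
      simpa using heq
  have hlabt : ∀ i : Fin R, dg D (π i) (pk D τ R) = τ (π i) :=
    fun i => dg_pk hD τ R τ_lt _ (π i).2
  refine ⟨τ, φ', τ_lt, ?_, ?_, ?_, ?_, ?_⟩
  · intro q hq
    rcases τ_spec q hq with ⟨h1, _⟩ | ⟨e', he', ht, _⟩
    · exact Or.inl h1
    · exact Or.inr ⟨e', he', ht⟩
  · -- avoids S
    intro p hp hq hne hmem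
    rcases τ_spec p.1 hq with ⟨h1, _⟩ | ⟨e', he', ht, heq⟩
    · exact hne (by rw [← hmem]; exact h1)
    · have hmemC : (π.symm ⟨p.1, hq⟩, h (π.symm ⟨p.1, hq⟩)) ∈ C := by
        simp only [C, List.mem_toFinset, List.mem_filterMap]
        refine ⟨p, hp, ?_⟩
        simp only [g]
        rw [dif_pos hq, ← hmem, ht, heq]
      exact havoid _ hmemC
  · -- meets the matchings
    intro M hMF hMp hMlen
    let L : List (Fin R → α) := M.map (tup D π φ)
    have hLH : ∀ a ∈ L, a ∈ H := by
      intro a ha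
      obtain ⟨e, he, rfl⟩ := List.mem_map.1 ha
      exact hE.1 e (hMF e he)
    have hLp : L.Pairwise DisjT := by
      rw [List.pairwise_map]
      refine List.Pairwise.imp_of_mem ?_ hMp
      intro a b ha hb hab i heq
      have h1 := hE.2 a (hMF a ha) b (hMF b hb) i heq
      exact hab (π i) (π i).2 h1
    have hexists : ∃ e ∈ M, ∃ i, h i = tup D π φ e i := by
      by_contra hno
      have hL2 : (h :: L).Pairwise DisjT := by
        refine List.pairwise_cons.2 ⟨?_, hLp⟩
        intro a ha i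
        obtain ⟨e, he, rfl⟩ := List.mem_map.1 ha
        exact fun hh => hno ⟨e, he, i, hh⟩
      have := hB.nu (h :: L) (by
        intro a ha
        rcases List.mem_cons.1 ha with rfl | ha'
        · exact hH
        · exact hLH a ha') hL2
      simp only [List.length_cons, L, List.length_map, hMlen] at this
      omega
    obtain ⟨e, he, i, hi⟩ := hexists
    have heF := hMF e he
    refine ⟨e, he, π i, (π i).2, ?_⟩
    apply τ_eq (π i) (π i).2 e heF
    simp only [Fin.eta, Equiv.symm_apply_apply]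
    exact hi.symm
  · -- membership in H
    intro e he
    rcases List.mem_cons.1 he with rfl | he'
    · have : tup D π φ' (pk D τ R) = h := by
        funext i
        simp only [tup, hlabt, hφ't]
      rw [this]; exact hH
    · have : tup D π φ' e = tup D π φ e := by
        funext i
        simp only [tup, hφ'F e he']
      rw [this]; exact hE.1 e he'
  · -- injectivity
    intro e he e' he' i heq
    rcases List.mem_cons.1 he with rfl | h1 <;> rcases List.mem_cons.1 he' with rfl | h2
    · rfl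
    · rw [hlabt] at heq ⊢
      rw [hφ't, hφ'F e' h2] at heq
      have := τ_eq (π i) (π i).2 e' h2 (by simpa using heq.symm)
      exact this
    · rw [hlabt] at heq ⊢
      rw [hφ't, hφ'F e h1] at heq
      have := τ_eq (π i) (π i).2 e h1 (by simpa using heq)
      exact this.symm
    · rw [hφ'F e h1, hφ'F e' h2] at heq
      exact hE.2 e h1 e' h2 i heq

/-- A configuration that maps into `F` by a column permutation and label maps which are injective
on the digits refutes `F`. -/
theorem ref_of_img {D : ℕ} (hD : 0 < D) {H : Set (Fin R → α)} {G F : List ℕ}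
    (σ : Equiv.Perm (Fin R)) (τ : Fin R → ℕ → ℕ) (img : ℕ → ℕ)
    (himg : ∀ g ∈ G, img g ∈ F)
    (hdig : ∀ g ∈ G, ∀ q : Fin R, dg D (σ q) (img g) = τ q (dg D q g))
    (hinj : ∀ q : Fin R, ∀ a b, a < D → b < D → τ q a = τ q b → a = b)
    (hG : Ref D H G) : Ref D H F := by
  intro π φ hE
  let π' : Equiv.Perm (Fin R) := π.trans σ.symm
  let φ'' : Fin R → ℕ → α := fun i' x => φ i' (τ (π' i') x)
  have hσπ : ∀ i' : Fin R, σ (π' i') = π i' := by
    intro i'
    simp [π']
  have hlabimg : ∀ g ∈ G, ∀ i' : Fin R, dg D (π i') (img g) = τ (π' i') (dg D (π' i') g) := by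
    intro g hg i'
    rw [← hσπ i']
    exact hdig g hg _
  apply hG π' φ''
  constructor
  · intro g hgm
    have : tup D π' φ'' g = tup D π φ (img g) := by
      funext i'
      simp only [tup, φ'']
      rw [hlabimg g hgm]
    rw [this]
    exact hE.1 _ (himg g hgm)
  · intro g hgm g' hgm' i' heq
    simp only [φ''] at heq
    rw [← hlabimg g hgm, ← hlabimg g' hgm'] at heq
    have h5 := hE.2 _ (himg g hgm) _ (himg g' hgm') i' heq
    rw [hlabimg g hgm, hlabimg g' hgm'] at h5
    exact hinj _ _ _ (dg_lt hD _ _) (dg_lt hD _ _) h5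

/-- From a refuted one edge configuration to a small cover. -/
theorem cover_of_ref {D : ℕ} (H : Finset (Fin R → α)) {NU SZ c0 : ℕ}
    (hnu : ∀ L : List (Fin R → α), (∀ a ∈ L, a ∈ H) → L.Pairwise DisjT → L.length ≤ NU)
    (hroot : ∀ K : Set (Fin R → α), Bad K NU SZ → Ref D K [c0]) :
    ∃ C : Finset (Fin R × α), C.card ≤ SZ ∧ ∀ e ∈ H, ∃ i, (i, e i) ∈ C := by
  classical
  by_contra hno
  have hB : Bad (H : Set (Fin R → α)) NU SZ := by
    constructor
    · intro L hL hp
      exact hnu L (fun a ha => by simpa using hL a ha) hp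
    · intro C hC
      by_contra hc
      apply hno
      refine ⟨C, hC, fun e he => ?_⟩
      by_contra hi
      exact hc ⟨e, by simpa using he, fun i hi' => hi ⟨i, hi'⟩⟩
  obtain ⟨e0, he0, _⟩ := hB.tau ∅ (by simp)
  apply hroot _ hB (Equiv.refl _) (fun i _ => e0 i)
  constructor
  · intro e he
    have he' : tup D (Equiv.refl (Fin R)) (fun i _ => e0 i) e = e0 := rfl
    rw [he']; exact he0
  · intro e he e' he' i _
    simp only [List.mem_singleton] at he he'
    rw [he, he']

end game

end Vale.Agent.Lib.P045.Fast
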