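import Mathlib
import Vale.Agent.Lib.P045.Fast.Game
import Vale.Agent.Lib.P045.Fast.Facts

/-!
Soundness of the checker of `Check.lean`.
-/
namespace Vale.Agent.Lib.P045.Fast

open Finset

variable {α : Type*}

/-! ### Raw operations -/

theorem bit_land_one (n x : ℕ) : Nat.land (Nat.shiftRight n x) 1 = (n.testBit x).toNat := by
  show (n >>> x) &&& 1 = _
  rw [Nat.and_one_is_mod, Nat.testBit_eq_decide_div_mod_eq, Nat.shiftRight_eq_div_pow]
  cases Nat.mod_two_eq_zero_or_one (n / 2 ^ x) with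
  | inl h => simp [h]
  | inr h => simp [h]

theorem testBit_one_shl (t x : ℕ) : (Nat.shiftLeft 1 t).testBit x = decide (t = x) := by
  show (1 <<< t).testBit x = _
  rw [Nat.one_shiftLeft, Nat.testBit_two_pow]

theorem testBit_lor' (a b x : ℕ) : (Nat.lor a b).testBit x = (a.testBit x || b.testBit x) :=
  Nat.testBit_or a b x

theorem testBit_land' (a b x : ℕ) : (Nat.land a b).testBit x = (a.testBit x && b.testBit x) :=
  Nat.testBit_and a b x

theorem testBit_xor' (a b x : ℕ) : (Nat.xor a b).testBit x = (a.testBit x ^^ b.testBit x) :=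
  Nat.testBit_xor a b x

theorem testBit_shl' (a s x : ℕ) :
    (Nat.shiftLeft a s).testBit x = (decide (x ≥ s) && a.testBit (x - s)) :=
  Nat.testBit_shiftLeft a

theorem testBit_shr' (a s x : ℕ) : (Nat.shiftRight a s).testBit x = a.testBit (s + x) :=
  Nat.testBit_shiftRight a

/-! ### The finite loops -/

theorem allB_spec {f : ℕ → Bool} {d : ℕ} : ∀ {b : ℕ}, allB f d b = true →
    ∀ x, b ≤ x → x < b + 2 ^ d → f x = true := by
  induction d with
  | zero =>
    intro b h x h1 h2
    have : x = b := by simp at h2; omega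
    subst this
    exact h
  | succ d ih =>
    intro b h x h1 h2
    have h' : (Bool.rec false (allB f d (Nat.add b (Nat.pow 2 d))) (allB f d b) : Bool) = true := h
    cases hb : allB f d b with
    | false => rw [hb] at h'; simp at h'
    | true =>
      rw [hb] at h'
      by_cases hx : x < b + 2 ^ d
      · exact ih hb x h1 hx
      · refine ih h' x ?_ ?_
        · show b + 2 ^ d ≤ x
          omega
        · show x < b + 2 ^ d + 2 ^ d
          rw [pow_succ] at h2
          omega

theorem allN_spec {f : ℕ → Bool} {n : ℕ} (h : allN f n = true) : ∀ i < n, f i = true := by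
  induction n with
  | zero => intro i hi; omega
  | succ n ih =>
    have h' : (Bool.rec false (allN f n) (f n) : Bool) = true := h
    cases hb : f n with
    | false => rw [hb] at h'; simp at h'
    | true =>
      rw [hb] at h'
      intro i hi
      by_cases hin : i = n
      · rw [hin]; exact hb
      · exact ih h' i (by omega)

theorem beq_true {a b : ℕ} (h : Nat.beq a b = true) : a = b := Nat.eq_of_beq_eq_true h

theorem beq_false {a b : ℕ} (h : a ≠ b) : Nat.beq a b = false := by
  rw [← Bool.not_eq_true, Nat.beq_eq]; exact h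

theorem ble_false {a b : ℕ} (h : b < a) : Nat.ble a b = false := by
  rw [← Bool.not_eq_true, Nat.ble_eq]; omega

/-- The defining property of a base cylinder. -/
theorem cylOK_spec {n s : ℕ} (h : cylOK n s = true) :
    ∀ x < 6561, n.testBit x = decide (x / s % 9 = 0) := by
  intro x hx
  have h1 := allB_spec h x (by omega) (by norm_num; omega)
  have h2 : Nat.ble 6561 x = false := ble_false hx
  rw [h2] at h1
  have h3 : bitZ n x (Nat.mod (Nat.div x s) 9) = true := h1
  unfold bitZ at h3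
  have hy : Nat.mod (Nat.div x s) 9 = x / s % 9 := rfl
  rw [hy] at h3
  by_cases hz : x / s % 9 = 0
  · have hb : Nat.beq (x / s % 9) 0 = true := by rw [hz]; rfl
    rw [hb] at h3
    have h4 := beq_true h3
    rw [bit_land_one] at h4
    simp [hz]
    cases hn : n.testBit x with
    | false => rw [hn] at h4; simp at h4
    | true => rfl
  · have hb : Nat.beq (x / s % 9) 0 = false := beq_false hz
    rw [hb] at h3
    have h4 := beq_true h3
    rw [bit_land_one] at h4
    simp [hz]
    cases hn : n.testBit x with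
    | false => rfl
    | true => rw [hn] at h4; simp at h4

/-- Translating a base cylinder. -/
theorem cyl_spec {C s : ℕ} (hs : 0 < s) (hC : ∀ x < 6561, C.testBit x = decide (x / s % 9 = 0))
    {l : ℕ} (hl : l < 9) {x : ℕ} (hx : x < 6561) :
    (Nat.shiftLeft C (l * s)).testBit x = decide (x / s % 9 = l) := by
  rw [testBit_shl']
  by_cases h : x ≥ l * s
  · have h1 : x - l * s < 6561 := by omega
    rw [decide_eq_true h, Bool.true_and, hC _ h1]
    have h2 : (x - l * s) / s = x / s - l := by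
      rw [Nat.mul_comm l s, Nat.sub_mul_div x s l]
    have h3 : l ≤ x / s := (Nat.le_div_iff_mul_le hs).2 h
    rw [h2]
    congr 1
    apply propext
    omega
  · have h1 : x / s < l := by
      apply Nat.div_lt_of_lt_mul
      rw [Nat.mul_comm]
      omega
    rw [decide_eq_false h, Bool.false_and]
    symm
    rw [decide_eq_false_iff_not]
    have := Nat.mod_le (x / s) 9
    omega

theorem c0_spec : ∀ x < 6561, C0.testBit x = decide (x / 1 % 9 = 0) := cylOK_spec c0_chk
theorem c1_spec : ∀ x < 6561, C1.testBit x = decide (x / 9 % 9 = 0) := cylOK_spec c1_chk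
theorem c2_spec : ∀ x < 6561, C2.testBit x = decide (x / 81 % 9 = 0) := cylOK_spec c2_chk
theorem c3_spec : ∀ x < 6561, C3.testBit x = decide (x / 729 % 9 = 0) := cylOK_spec c3_chk

theorem dg0 (x : ℕ) : dg 9 0 x = x / 1 % 9 := by simp [dg]
theorem dg1 (x : ℕ) : dg 9 1 x = x / 9 % 9 := by simp [dg]
theorem dg2 (x : ℕ) : dg 9 2 x = x / 81 % 9 := by norm_num [dg]
theorem dg3 (x : ℕ) : dg 9 3 x = x / 729 % 9 := by norm_num [dg]

/-- The four column cylinders. -/
theorem cyl0 {l x : ℕ} (hl : l < 9) (hx : x < 6561) :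
    (Nat.shiftLeft C0 (l * 1)).testBit x = decide (dg 9 0 x = l) := by
  rw [dg0]; exact cyl_spec (by norm_num) c0_spec hl hx

theorem cyl1 {l x : ℕ} (hl : l < 9) (hx : x < 6561) :
    (Nat.shiftLeft C1 (l * 9)).testBit x = decide (dg 9 1 x = l) := by
  rw [dg1]; exact cyl_spec (by norm_num) c1_spec hl hx

theorem cyl2 {l x : ℕ} (hl : l < 9) (hx : x < 6561) :
    (Nat.shiftLeft C2 (l * 81)).testBit x = decide (dg 9 2 x = l) := by
  rw [dg2]; exact cyl_spec (by norm_num) c2_spec hl hx

theorem cyl3 {l x : ℕ} (hl : l < 9) (hx : x < 6561) :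
    (Nat.shiftLeft C3 (l * 729)).testBit x = decide (dg 9 3 x = l) := by
  rw [dg3]; exact cyl_spec (by norm_num) c3_spec hl hx

/-! ### The bit set of a code -/

/-- The specification of `U`: the codes below `6561` sharing a digit with `a`. -/
theorem U_spec (a : ℕ) {x : ℕ} (hx : x < 6561) :
    (U a).testBit x = true ↔ ∃ q < 4, dg 9 q x = dg 9 q a := by
  have h0 : Nat.mod a 9 = dg 9 0 a * 1 := by rw [dg0]; show a % 9 = _; omega
  have h1 : Nat.sub (Nat.mod a 81) (Nat.mod a 9) = dg 9 1 a * 9 := by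
    rw [dg1]; show a % 81 - a % 9 = _; omega
  have h2 : Nat.sub (Nat.mod a 729) (Nat.mod a 81) = dg 9 2 a * 81 := by
    rw [dg2]; show a % 729 - a % 81 = _; omega
  have h3 : Nat.sub (Nat.mod a 6561) (Nat.mod a 729) = dg 9 3 a * 729 := by
    rw [dg3]; show a % 6561 - a % 729 = _; omega
  unfold U
  rw [h1, h2, h3, h0]
  simp only [testBit_lor']
  rw [cyl0 (dg_lt (by norm_num) _ _) hx, cyl1 (dg_lt (by norm_num) _ _) hx,
    cyl2 (dg_lt (by norm_num) _ _) hx, cyl3 (dg_lt (by norm_num) _ _) hx]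
  simp only [Bool.or_eq_true, decide_eq_true_eq]
  constructor
  · rintro (h | h | h | h)
    · exact ⟨0, by norm_num, h⟩
    · exact ⟨1, by norm_num, h⟩
    · exact ⟨2, by norm_num, h⟩
    · exact ⟨3, by norm_num, h⟩
  · rintro ⟨q, hq, h⟩
    interval_cases q
    · exact Or.inl h
    · exact Or.inr (Or.inl h)
    · exact Or.inr (Or.inr (Or.inl h))
    · exact Or.inr (Or.inr (Or.inr h))

theorem lowOr_spec {C s : ℕ} (hs : 0 < s) (hC : ∀ x < 6561, C.testBit x = decide (x / s % 9 = 0))
    {l : ℕ} (hl : l ≤ 9) {x : ℕ} (hx : x < 6561) :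
    (lowOr C s l).testBit x = decide (x / s % 9 < l) := by
  induction l with
  | zero => simp [show lowOr C s 0 = 0 from rfl]
  | succ l ih =>
    have e : lowOr C s (l + 1) = Nat.lor (lowOr C s l) (Nat.shiftLeft C (Nat.mul l s)) := rfl
    rw [e, testBit_lor', ih (by omega)]
    have := cyl_spec hs hC (l := l) (by omega) hx
    have e2 : Nat.mul l s = l * s := rfl
    rw [e2, this]
    simp only [decide_eq_decide, ← Bool.decide_or]
    omega

/-- One column of the box. -/
theorem bq_spec {s R E C : ℕ} (hs : 0 < s) (hC : ∀ x < 6561, C.testBit x = decide (x / s % 9 = 0))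
    (h : bqOK s R E C = true) {l x : ℕ} (hl : l < 9) (hx : x < 6561) :
    (Bq s R E l).testBit x = true ↔ x / s % 9 < l ∨ x / s % 9 = 8 := by
  have h1 := beq_true (allN_spec h l hl)
  rw [h1, testBit_lor', lowOr_spec hs hC (by omega) hx]
  have e2 : Nat.mul 8 s = 8 * s := rfl
  rw [e2, cyl_spec hs hC (by norm_num) hx]
  simp

/-- The bound of column `q` in the packed bounds `L`. -/
def bd (L q : ℕ) : ℕ := dg 9 q L

/-- The specification of `Box`. -/
theorem Box_spec (L : ℕ) {x : ℕ} (hx : x < 6561) :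
    (Box L).testBit x = true ↔ ∀ q < 4, dg 9 q x < bd L q ∨ dg 9 q x = 8 := by
  unfold Box
  simp only [testBit_land', Bool.and_eq_true]
  have h0 := bq_spec (by norm_num) c0_spec bq0_chk (l := Nat.mod L 9) (Nat.mod_lt _ (by norm_num)) hx
  have h1 := bq_spec (by norm_num) c1_spec bq1_chk (l := Nat.mod (Nat.div L 9) 9) (Nat.mod_lt _ (by norm_num)) hx
  have h2 := bq_spec (by norm_num) c2_spec bq2_chk (l := Nat.mod (Nat.div L 81) 9) (Nat.mod_lt _ (by norm_num)) hx
  have h3 := bq_spec (by norm_num) c3_spec bq3_chk (l := Nat.mod (Nat.div L 729) 9) (Nat.mod_lt _ (by norm_num)) hx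
  rw [h0, h1, h2, h3]
  have b0 : Nat.mod L 9 = bd L 0 := by simp [bd, dg]; rfl
  have b1 : Nat.mod (Nat.div L 9) 9 = bd L 1 := by simp [bd, dg]; rfl
  have b2 : Nat.mod (Nat.div L 81) 9 = bd L 2 := by norm_num [bd, dg]; rfl
  have b3 : Nat.mod (Nat.div L 729) 9 = bd L 3 := by norm_num [bd, dg]; rfl
  rw [b0, b1, b2, b3, ← dg0, ← dg1, ← dg2, ← dg3]
  constructor
  · rintro ⟨a, b, c, d⟩ q hq
    interval_cases q
    · exact a
    · exact b
    · exact c
    · exact d
  · intro h
    exact ⟨h 0 (by norm_num), h 1 (by norm_num), h 2 (by norm_num), h 3 (by norm_num)⟩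

theorem sub_one_bit (n : ℕ) {x : ℕ} (hx : x < n) : (Nat.sub (Nat.shiftLeft 1 n) 1).testBit x = true := by
  show (1 <<< n - 1).testBit x = true
  rw [Nat.one_shiftLeft, Nat.testBit_two_pow_sub_one]
  simpa using hx

theorem all_bit {x : ℕ} (hx : x < 6561) : ALL.testBit x = true := by
  rw [beq_true all_eq]
  exact sub_one_bit _ hx

theorem lt_shl_bit {n x : ℕ} {m : ℕ} (h : Nat.ble (Nat.succ n) (Nat.shiftLeft 1 m) = true) (hx : m ≤ x) :
    n.testBit x = false := by
  have h1 : n + 1 ≤ 1 <<< m := Nat.le_of_ble_eq_true h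
  rw [Nat.one_shiftLeft] at h1
  apply Nat.testBit_lt_two_pow
  calc n < 2 ^ m := h1
    _ ≤ 2 ^ x := Nat.pow_le_pow_right (by norm_num) hx

/-- The codes without the digit `8`. -/
theorem not8_spec {x : ℕ} (h : NOT8.testBit x = true) : x < 6561 ∧ ∀ q < 4, dg 9 q x ≠ 8 := by
  have hlt : x < 6561 := by
    by_contra hc
    have := lt_shl_bit not8_lt (x := x) (by omega)
    rw [h] at this
    simp at this
  refine ⟨hlt, ?_⟩
  rw [beq_true not8_eq, testBit_xor', all_bit hlt] at h
  simp only [testBit_lor'] at h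
  have h0 := cyl0 (l := 8) (by norm_num) hlt
  have h1 := cyl1 (l := 8) (by norm_num) hlt
  have h2 := cyl2 (l := 8) (by norm_num) hlt
  have h3 := cyl3 (l := 8) (by norm_num) hlt
  rw [show 8 * 1 = 8 from rfl] at h0
  rw [show 8 * 9 = 72 from rfl] at h1
  rw [show 8 * 81 = 648 from rfl] at h2
  rw [show 8 * 729 = 5832 from rfl] at h3
  rw [h0, h1, h2, h3] at h
  intro q hq
  interval_cases q <;> simp_all

/-- The mask of a vertex. -/
theorem SV_spec {v x : ℕ} (hv : v < 32) (hx : x < 6561) :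
    (SV v).testBit x = decide (dg 9 (v / 8) x = v % 8) := by
  have h1 := beq_true (allN_spec sv_chk v hv)
  have h2 := congrArg (fun n => n.testBit x) h1
  simp only [testBit_land', all_bit hx, Bool.and_true] at h2
  rw [h2]
  have e1 : Nat.shiftRight v 3 = v / 8 := by
    show v >>> 3 = _
    rw [Nat.shiftRight_eq_div_pow]
  have e2 : Nat.land v 7 = v % 8 := by
    show v &&& 7 = _
    exact Nat.and_two_pow_sub_one_eq_mod v 3
  rw [e1, e2]
  have hl : v % 8 < 9 := by omega
  have hq : v / 8 < 4 := by omega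
  generalize v / 8 = q at hq ⊢
  generalize v % 8 = l at hl ⊢
  interval_cases q
  · rw [beq_true cc0]; exact cyl0 hl hx
  · rw [beq_true cc1]; exact cyl1 hl hx
  · rw [beq_true cc2]; exact cyl2 hl hx
  · rw [beq_true cc3]; exact cyl3 hl hx

/-! ### Configurations -/

/-- The configuration packed in `G`. -/
def edgesOf (G : ℕ) : List ℕ := gl (G % 32) (G / 32)

theorem fbOf_spec (c : ℕ) : ∀ (g x : ℕ), (fbOf c g).testBit x = true ↔ x ∈ gl c g := by
  induction c with
  | zero => intro g x; simp [show fbOf 0 g = 0 from rfl, gl]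
  | succ c ih =>
    intro g x
    have e : fbOf (c + 1) g = Nat.lor (Nat.shiftLeft 1 (Nat.mod g 8192))
      (fbOf c (Nat.shiftRight g 13)) := rfl
    rw [e, testBit_lor', testBit_one_shl, gl]
    simp only [Bool.or_eq_true, decide_eq_true_eq, List.mem_cons, ih]
    constructor
    · rintro (h | h)
      · exact Or.inl h.symm
      · exact Or.inr h
    · rintro (h | h)
      · exact Or.inl h.symm
      · exact Or.inr h

/-- The images of the codes. -/
theorem imgs2_spec (t0 t1 t2 t3 s0 s1 s2 s3 c : ℕ) : ∀ (g y : ℕ),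
    (imgs2 t0 t1 t2 t3 s0 s1 s2 s3 c g).testBit y = true ↔
      ∃ e ∈ gl c g, img2 t0 t1 t2 t3 s0 s1 s2 s3 e = y := by
  induction c with
  | zero => intro g y; simp [show imgs2 t0 t1 t2 t3 s0 s1 s2 s3 0 g = 0 from rfl, gl]
  | succ c ih =>
    intro g y
    have e : imgs2 t0 t1 t2 t3 s0 s1 s2 s3 (c + 1) g =
      Nat.lor (Nat.shiftLeft 1 (img2 t0 t1 t2 t3 s0 s1 s2 s3 (Nat.mod g 8192)))
        (imgs2 t0 t1 t2 t3 s0 s1 s2 s3 c (Nat.shiftRight g 13)) := rfl
    rw [e, testBit_lor', testBit_one_shl, gl]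
    simp only [Bool.or_eq_true, decide_eq_true_eq, List.mem_cons, ih]
    constructor
    · rintro (h | ⟨x, hx, h⟩)
      · exact ⟨_, Or.inl rfl, h⟩
      · exact ⟨x, Or.inr hx, h⟩
    · rintro ⟨x, h | hx, h'⟩
      · subst h; exact Or.inl h'
      · exact Or.inr ⟨x, hx, h'⟩

/-- The bit set of a configuration. -/
noncomputable def fbE (G : ℕ) : ℕ := fbOf (Nat.mod G 32) (Nat.shiftRight G 5)

theorem shr5 (G : ℕ) : Nat.shiftRight G 5 = G / 32 := by
  show G >>> 5 = _
  rw [Nat.shiftRight_eq_div_pow]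

theorem fbE_spec (G x : ℕ) : (fbE G).testBit x = true ↔ x ∈ edgesOf G := by
  unfold fbE edgesOf
  rw [fbOf_spec, shr5]
  rfl

/-! ### Constraints -/

/-- The legality of a code with respect to a configuration. -/
def Legal (E : List ℕ) (x : ℕ) : Prop :=
  ∀ a ∈ E, ∀ b ∈ E, (∀ q < 4, dg 9 q a ≠ dg 9 q b) → ∃ q < 4, dg 9 q x = dg 9 q a ∨ dg 9 q x = dg 9 q b

theorem test_bits {A B C : ℕ}
    (h : Nat.beq (Nat.land (Nat.land (Nat.land A B) (Nat.xor C 1)) 1) 1 = true) :
    A.testBit 0 = true ∧ B.testBit 0 = true ∧ C.testBit 0 = false := by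
  have h1 := beq_true h
  have h2 : (Nat.land (Nat.land (Nat.land A B) (Nat.xor C 1)) 1).testBit 0 = true := by
    rw [h1]; rfl
  simp only [testBit_land', testBit_xor', Bool.and_eq_true] at h2
  obtain ⟨⟨⟨a, b⟩, c⟩, _⟩ := h2
  refine ⟨a, b, ?_⟩
  simpa using c

theorem hint1_spec {FB : ℕ} {E : List ℕ} (hFB : ∀ y, FB.testBit y = true ↔ y ∈ E)
    (hlt : ∀ e ∈ E, e < 6561) {x : ℕ} (hx : x < 6561) (hleg : Legal E x) (a b R : ℕ)
    (hR : R.testBit x = true) : (hint1 FB a b R).testBit x = true := by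
  unfold hint1
  cases hc : Nat.beq (Nat.land (Nat.land (Nat.land (Nat.shiftRight FB a) (Nat.shiftRight FB b))
      (Nat.xor (Nat.shiftRight (U a) b) 1)) 1) 1 with
  | false => exact hR
  | true =>
    obtain ⟨h1, h2, h3⟩ := test_bits hc
    rw [testBit_shr'] at h1 h2 h3
    simp only [add_zero] at h1 h2 h3
    have ha := (hFB a).1 h1
    have hb := (hFB b).1 h2
    have hdis : ∀ q < 4, dg 9 q a ≠ dg 9 q b := by
      intro q hq heq
      have := (U_spec a (hlt b hb)).2 ⟨q, hq, heq.symm⟩
      rw [this] at h3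
      simp at h3
    obtain ⟨q, hq, h | h⟩ := hleg a ha b hb hdis
    · show (Nat.land R (Nat.lor (U a) (U b))).testBit x = true
      rw [testBit_land', testBit_lor', hR, (U_spec a hx).2 ⟨q, hq, h⟩]
      rfl
    · show (Nat.land R (Nat.lor (U a) (U b))).testBit x = true
      rw [testBit_land', testBit_lor', hR, (U_spec b hx).2 ⟨q, hq, h⟩]
      simp

theorem hintsR_spec {FB : ℕ} {E : List ℕ} (hFB : ∀ y, FB.testBit y = true ↔ y ∈ E)
    (hlt : ∀ e ∈ E, e < 6561) {x : ℕ} (hx : x < 6561) (hleg : Legal E x) (n : ℕ) :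
    ∀ h R, R.testBit x = true → (hintsR FB n h R).testBit x = true := by
  induction n with
  | zero => intro h R hR; exact hR
  | succ n ih =>
    intro h R hR
    exact ih _ _ (hint1_spec hFB hlt hx hleg _ _ _ hR)

/-! ### The children -/

/-- What the check says about a child with code `t`. -/
structure KidPass (tbl : ℕ → ℕ) (i FB t k : ℕ) : Prop where
  lt : Nat.ble (Nat.succ (Nat.land (Nat.shiftRight k 13) 262143)) i = true
  chk : kidChk FB t (Nat.land (Nat.shiftRight k 36) 1099511627775) (Nat.land (Nat.shiftRight k 31) 31)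
    (tbl (Nat.land (Nat.shiftRight k 13) 262143)) = true

theorem kidsOK_spec {tbl : ℕ → ℕ} {i FB x : ℕ} (hx : x < 6561) (n : ℕ) :
    ∀ k R, kidsOK tbl i FB n k R = true → R.testBit x = true →
      ∃ k', KidPass tbl i FB x k' := by
  induction n with
  | zero =>
    intro k R h hR
    have h0 : Nat.beq R 0 = true := h
    rw [beq_true h0] at hR
    simp at hR
  | succ n ih =>
    intro k R h hR
    have h' : (Bool.rec false
        (Bool.rec false
          (kidsOK tbl i FB n (Nat.shiftRight k 76)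
            (Nat.land R (Nat.xor ALL (Nat.shiftLeft 1 (Nat.land k 8191)))))
          (kidChk FB (Nat.land k 8191) (Nat.land (Nat.shiftRight k 36) 1099511627775)
            (Nat.land (Nat.shiftRight k 31) 31)
            (tbl (Nat.land (Nat.shiftRight k 13) 262143))))
        (Nat.ble (Nat.succ (Nat.land (Nat.shiftRight k 13) 262143)) i) : Bool) = true := h
    cases h1 : Nat.ble (Nat.succ (Nat.land (Nat.shiftRight k 13) 262143)) i with
    | false => rw [h1] at h'; simp at h'
    | true =>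
      rw [h1] at h'
      cases h2 : kidChk FB (Nat.land k 8191) (Nat.land (Nat.shiftRight k 36) 1099511627775)
            (Nat.land (Nat.shiftRight k 31) 31)
            (tbl (Nat.land (Nat.shiftRight k 13) 262143)) with
      | false => rw [h2] at h'; simp at h'
      | true =>
        rw [h2] at h'
        by_cases hxt : Nat.land k 8191 = x
        · rw [hxt] at h2
          exact ⟨k, h1, h2⟩
        · refine ih _ _ h' ?_
          rw [testBit_land', testBit_xor', testBit_one_shl, hR, all_bit hx,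
            decide_eq_false hxt]
          rfl

/-! ### Column permutations and label maps -/

theorem land_mask {x n : ℕ} : Nat.land x (2 ^ n - 1) = x % 2 ^ n :=
  Nat.and_two_pow_sub_one_eq_mod x n

theorem sig_spec {sg : ℕ} (hsg : sg < 32) : ∃ σ : Equiv.Perm (Fin 4),
    Nat.mod (sigAt sg) 8192 = 9 ^ (σ 0 : ℕ) ∧
    Nat.mod (Nat.shiftRight (sigAt sg) 13) 8192 = 9 ^ (σ 1 : ℕ) ∧
    Nat.mod (Nat.shiftRight (sigAt sg) 26) 8192 = 9 ^ (σ 2 : ℕ) ∧
    Nat.shiftRight (sigAt sg) 39 = 9 ^ (σ 3 : ℕ) := by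
  have h := allN_spec sig_chk sg hsg
  have h' : (Bool.rec false
    (Bool.rec false
      (Bool.rec false
        (Bool.rec false
          (allN (fun q => allN (fun q' => Bool.rec true (Nat.beq q q')
            (Nat.beq (sigE sg q) (sigE sg q'))) 4) 4)
          (Nat.beq (Nat.shiftRight (sigAt sg) 39) (Nat.pow 9 (sigE sg 3))))
        (Nat.beq (Nat.mod (Nat.shiftRight (sigAt sg) 26) 8192) (Nat.pow 9 (sigE sg 2))))
      (Nat.beq (Nat.mod (Nat.shiftRight (sigAt sg) 13) 8192) (Nat.pow 9 (sigE sg 1))))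
    (Nat.beq (Nat.mod (sigAt sg) 8192) (Nat.pow 9 (sigE sg 0))) : Bool) = true := h
  cases h0 : Nat.beq (Nat.mod (sigAt sg) 8192) (Nat.pow 9 (sigE sg 0)) with
  | false => rw [h0] at h'; simp at h'
  | true =>
    rw [h0] at h'
    cases h1 : Nat.beq (Nat.mod (Nat.shiftRight (sigAt sg) 13) 8192) (Nat.pow 9 (sigE sg 1)) with
    | false => rw [h1] at h'; simp at h'
    | true =>
      rw [h1] at h'
      cases h2 : Nat.beq (Nat.mod (Nat.shiftRight (sigAt sg) 26) 8192) (Nat.pow 9 (sigE sg 2)) with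
      | false => rw [h2] at h'; simp at h'
      | true =>
        rw [h2] at h'
        cases h3 : Nat.beq (Nat.shiftRight (sigAt sg) 39) (Nat.pow 9 (sigE sg 3)) with
        | false => rw [h3] at h'; simp at h'
        | true =>
          rw [h3] at h'
          have hlt : ∀ q : Fin 4, sigE sg q < 4 := by
            intro q
            have : sigE sg q ≤ 3 := Nat.and_le_right
            omega
          let f : Fin 4 → Fin 4 := fun q => ⟨sigE sg q, hlt q⟩
          have hf : Function.Injective f := by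
            intro a b hab
            have h5 : sigE sg a = sigE sg b := congrArg Fin.val hab
            have h6 := allN_spec (allN_spec h' a a.2) b b.2
            have h7 : Nat.beq (sigE sg a) (sigE sg b) = true := by rw [h5]; exact Nat.beq_refl _
            rw [h7] at h6
            exact Fin.ext (beq_true h6)
          let σ : Equiv.Perm (Fin 4) := Equiv.ofBijective f (Finite.injective_iff_bijective.1 hf)
          refine ⟨σ, beq_true h0, beq_true h1, beq_true h2, beq_true h3⟩

theorem tau_spec {k : ℕ} (hk : k < 1024) :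
    ∀ d < 9, nib (tauAt k) d < 9 ∧ ∀ d' < 9, nib (tauAt k) d = nib (tauAt k) d' → d = d' := by
  have h : tauOK k = true := allB_spec tau_chk k (by omega) (by norm_num; omega)
  intro d hd
  have h1 := allN_spec h d hd
  have h1' : (Bool.rec false
    (allN (fun d' => Bool.rec true (Nat.beq d d') (Nat.beq (nib (tauAt k) d) (nib (tauAt k) d'))) 9)
    (Nat.ble (Nat.succ (nib (tauAt k) d)) 9) : Bool) = true := h1
  cases h2 : Nat.ble (Nat.succ (nib (tauAt k) d)) 9 with
  | false => rw [h2] at h1'; simp at h1'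
  | true =>
    rw [h2] at h1'
    refine ⟨Nat.le_of_ble_eq_true h2, fun d' hd' heq => ?_⟩
    have h3 := allN_spec h1' d' hd'
    have h4 : Nat.beq (nib (tauAt k) d) (nib (tauAt k) d') = true := by
      rw [heq]; exact Nat.beq_refl _
    rw [h4] at h3
    exact beq_true h3

theorem img_dg (σ : Equiv.Perm (Fin 4)) (a : Fin 4 → ℕ) (ha : ∀ q, a q < 9) (q : Fin 4) :
    dg 9 (σ q) (a 0 * 9 ^ (σ 0 : ℕ) + (a 1 * 9 ^ (σ 1 : ℕ) + (a 2 * 9 ^ (σ 2 : ℕ) +
      a 3 * 9 ^ (σ 3 : ℕ)))) = a q := by
  let d' : ℕ → ℕ := fun p => if hp : p < 4 then a (σ.symm ⟨p, hp⟩) else 0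
  have hd' : ∀ p < 4, d' p < 9 := by
    intro p hp
    simp only [d', dif_pos hp]
    exact ha _
  have e1 : ∀ x : Fin 4, d' (σ x) = a x := by
    intro x
    simp only [d']
    rw [dif_pos (σ x).2, Fin.eta, Equiv.symm_apply_apply]
  have hsum : a 0 * 9 ^ (σ 0 : ℕ) + (a 1 * 9 ^ (σ 1 : ℕ) + (a 2 * 9 ^ (σ 2 : ℕ) +
      a 3 * 9 ^ (σ 3 : ℕ))) = pk 9 d' 4 := by
    unfold pk
    rw [Finset.sum_range]
    rw [← Equiv.sum_comp σ (fun p : Fin 4 => d' p * 9 ^ (p : ℕ))]
    simp only [e1]
    rw [Fin.sum_univ_four]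
    ring
  rw [hsum, dg_pk (by norm_num) d' 4 hd' _ (σ q).2, e1]

theorem img2_eq (t0 t1 t2 t3 s0 s1 s2 s3 x : ℕ) : img2 t0 t1 t2 t3 s0 s1 s2 s3 x =
    nib t0 (dg 9 0 x) * s0 + (nib t1 (dg 9 1 x) * s1 + (nib t2 (dg 9 2 x) * s2 +
      nib t3 (dg 9 3 x) * s3)) := by
  rw [dg0, dg1, dg2, dg3, Nat.div_one]
  rfl

/-- The semantic content of the check of a child. -/
theorem kid_ref {H : Set (Fin 4 → α)} {FB t w sg G : ℕ} {E : List ℕ}
    (hFB : ∀ y, FB.testBit y = true ↔ y ∈ E) (hsg : sg < 32)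
    (hw0 : Nat.land w 1023 < 1024) (hw1 : Nat.land (Nat.shiftRight w 10) 1023 < 1024)
    (hw2 : Nat.land (Nat.shiftRight w 20) 1023 < 1024)
    (hw3 : Nat.land (Nat.shiftRight w 30) 1023 < 1024)
    (h : kidChk FB t w sg G = true) (hG : Ref 9 H (edgesOf G)) : Ref 9 H (t :: E) := by
  obtain ⟨σ, h0, h1, h2, h3⟩ := sig_spec hsg
  have hX := beq_true h
  let t' : Fin 4 → ℕ := ![tauAt (Nat.land w 1023), tauAt (Nat.land (Nat.shiftRight w 10) 1023),
    tauAt (Nat.land (Nat.shiftRight w 20) 1023), tauAt (Nat.land (Nat.shiftRight w 30) 1023)]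
  have ht' : ∀ q, ∀ d < 9, nib (t' q) d < 9 ∧ ∀ d' < 9, nib (t' q) d = nib (t' q) d' → d = d' := by
    intro q
    fin_cases q
    · exact tau_spec hw0
    · exact tau_spec hw1
    · exact tau_spec hw2
    · exact tau_spec hw3
  let img : ℕ → ℕ := img2 (t' 0) (t' 1) (t' 2) (t' 3)
    (Nat.mod (sigAt sg) 8192) (Nat.mod (Nat.shiftRight (sigAt sg) 13) 8192)
    (Nat.mod (Nat.shiftRight (sigAt sg) 26) 8192) (Nat.shiftRight (sigAt sg) 39)
  have himg : ∀ g ∈ edgesOf G, img g ∈ t :: E := by
    intro g hg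
    have hb : (kidImg w sg G).testBit (img g) = true := by
      unfold kidImg
      rw [imgs2_spec]
      refine ⟨g, ?_, rfl⟩
      rw [shr5]
      exact hg
    rw [← hX, testBit_land', testBit_lor', testBit_one_shl] at hb
    simp only [Bool.and_eq_true, Bool.or_eq_true, decide_eq_true_eq] at hb
    rcases hb.2 with h4 | h4
    · exact List.mem_cons_of_mem _ ((hFB _).1 h4)
    · rw [← h4]; exact List.mem_cons_self
  refine ref_of_img (by norm_num) σ (fun q d => nib (t' q) d) img himg ?_ ?_ hG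
  · intro g _ q
    have : img g = (fun q => nib (t' q) (dg 9 q g)) 0 * 9 ^ (σ 0 : ℕ) +
        ((fun q => nib (t' q) (dg 9 q g)) 1 * 9 ^ (σ 1 : ℕ) +
        ((fun q => nib (t' q) (dg 9 q g)) 2 * 9 ^ (σ 2 : ℕ) +
        (fun q => nib (t' q) (dg 9 q g)) 3 * 9 ^ (σ 3 : ℕ))) := by
      show img2 _ _ _ _ _ _ _ _ g = _
      rw [img2_eq, h0, h1, h2, h3]
      rfl
    rw [this, img_dg σ (fun q => nib (t' q) (dg 9 q g))
      (fun q => (ht' q _ (dg_lt (by norm_num) _ _)).1) q]
  · intro q a b ha hb hab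
    exact (ht' q a ha).2 b hb hab

/-! ### Nodes -/

theorem SM_spec {s x : ℕ} (hx : x < 6561)
    (h : ∀ k < 6, dg 9 (Nat.mod (Nat.shiftRight s (5 * k)) 32 / 8) x ≠
      Nat.mod (Nat.shiftRight s (5 * k)) 32 % 8) : (SM s).testBit x = false := by
  have key : ∀ v k, k < 6 → v = Nat.mod (Nat.shiftRight s (5 * k)) 32 → (SV v).testBit x = false := by
    intro v k hk hv
    have hv32 : v < 32 := by rw [hv]; exact Nat.mod_lt _ (by norm_num)
    rw [SV_spec hv32 hx, hv, decide_eq_false_iff_not]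
    exact h k hk
  have e0 : Nat.mod s 32 = Nat.mod (Nat.shiftRight s (5 * 0)) 32 := by
    have : Nat.shiftRight s (5 * 0) = s := rfl
    rw [this]
  unfold SM
  simp only [testBit_lor']
  rw [key _ 0 (by norm_num) e0, key _ 1 (by norm_num) rfl, key _ 2 (by norm_num) rfl,
    key _ 3 (by norm_num) rfl, key _ 4 (by norm_num) rfl, key _ 5 (by norm_num) rfl]
  rfl

theorem node_ref {H : Set (Fin 4 → α)} (hB : Bad H 2 6) {tbl : ℕ → ℕ} {i r : ℕ}
    (h : nodeOK tbl i (fbE (tbl i)) r = true)
    (ih : ∀ j < i, Ref 9 H (edgesOf (tbl j))) : Ref 9 H (edgesOf (tbl i)) := by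
  intro π φ hE
  have hFB := fbE_spec (tbl i)
  obtain ⟨E, hEdef⟩ : ∃ E, E = edgesOf (tbl i) := ⟨_, rfl⟩
  obtain ⟨FB, hFBdef⟩ : ∃ FB, FB = fbE (tbl i) := ⟨_, rfl⟩
  rw [← hEdef, ← hFBdef] at hFB
  rw [← hEdef] at hE
  rw [← hFBdef] at h
  unfold nodeOK at h
  obtain ⟨L, hL⟩ : ∃ L, L = Nat.land r 65535 := ⟨_, rfl⟩
  rw [← hL] at h
  cases hz : Nat.beq (Nat.land FB (Nat.land (Box L) NOT8)) FB with
  | false => rw [hz] at h; simp at h
  | true =>
    rw [hz] at h
    have hZ := beq_true hz
    have hbits : ∀ y ∈ E, (Box L).testBit y = true ∧ NOT8.testBit y = true := by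
      intro y hy
      have h1 := (hFB y).2 hy
      rw [← hZ] at h1
      simp only [testBit_land', Bool.and_eq_true] at h1
      exact h1.2
    have hlt : ∀ y ∈ E, y < 6561 := fun y hy => (not8_spec (hbits y hy).2).1
    have hno8 : ∀ y ∈ E, ∀ q < 4, dg 9 q y ≠ 8 := fun y hy => (not8_spec (hbits y hy).2).2
    obtain ⟨s, hs⟩ : ∃ s, s = Nat.shiftRight r 16 := ⟨_, rfl⟩
    let v : ℕ → ℕ := fun k => Nat.mod (Nat.shiftRight s (5 * k)) 32
    have hv : ∀ k, v k < 32 := fun k => Nat.mod_lt _ (by norm_num)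
    let S : List (ℕ × ℕ) := (List.range 6).map (fun k => (v k / 8, v k % 8))
    have hS : S.length ≤ 6 := by simp [S]
    obtain ⟨τ, φ', hτ, hused, havoid, hmatch, hE'⟩ :=
      step (D := 9) (by norm_num) hB (F := E) (S := S) hS (fun e he q hq => hno8 e he q hq) hE
    obtain ⟨x, hxdef⟩ : ∃ x, x = pk 9 τ 4 := ⟨_, rfl⟩
    rw [← hxdef] at hE'
    have hxlt : x < 6561 := by
      rw [hxdef]
      exact pk_lt (by norm_num) τ 4 hτ
    have hdgx : ∀ q < 4, dg 9 q x = τ q := by
      intro q hq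
      rw [hxdef]
      exact dg_pk (by norm_num) τ 4 hτ q hq
    -- the start of the bit set
    have hbox : (Box L).testBit x = true := by
      rw [Box_spec L hxlt]
      intro q hq
      rw [hdgx q hq]
      rcases hused q hq with h1 | ⟨e, he, h1⟩
      · exact Or.inr h1
      · rw [h1]
        exact ((Box_spec L (hlt e he)).1 (hbits e he).1) q hq
    have hsm : (SM s).testBit x = false := by
      apply SM_spec hxlt
      intro k hk
      have hmem : (v k / 8, v k % 8) ∈ S :=
        List.mem_map.2 ⟨k, List.mem_range.2 hk, rfl⟩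
      have h1 := havoid _ hmem
      have hq : v k / 8 < 4 := by have := hv k; omega
      have h2 := h1 hq (by show v k % 8 ≠ 8; omega)
      show dg 9 (v k / 8) x ≠ v k % 8
      rw [hdgx _ hq]
      exact h2
    have hleg : Legal E x := by
      intro a ha b hb hdis
      obtain ⟨e, he, q, hq, hqe⟩ := hmatch [a, b]
        (by
          intro e he
          simp only [List.mem_cons, List.not_mem_nil, or_false] at he
          rcases he with rfl | rfl
          · exact ha
          · exact hb)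
        (by simpa using hdis) rfl
      simp only [List.mem_cons, List.not_mem_nil, or_false] at he
      refine ⟨q, hq, ?_⟩
      rw [hdgx q hq]
      rcases he with rfl | rfl
      · exact Or.inl hqe
      · exact Or.inr hqe
    have hR0 : (Nat.land (Box L) (Nat.xor (SM s) ALL)).testBit x = true := by
      rw [testBit_land', testBit_xor', hbox, hsm, all_bit hxlt]
      rfl
    have hR := hintsR_spec hFB hlt hxlt hleg (Nat.land (Nat.shiftRight r 46) 31)
      (Nat.shiftRight r 58) _ hR0
    rw [← hs] at h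
    obtain ⟨k, hk⟩ := kidsOK_spec hxlt _ _ _ h hR
    have hji : Nat.land (Nat.shiftRight k 13) 262143 < i := Nat.le_of_ble_eq_true hk.lt
    have mask1023 : ∀ y, Nat.land y 1023 < 1024 := by
      intro y
      have : Nat.land y 1023 ≤ 1023 := Nat.and_le_right
      omega
    have hsg : Nat.land (Nat.shiftRight k 31) 31 < 32 := by
      have : Nat.land (Nat.shiftRight k 31) 31 ≤ 31 := Nat.and_le_right
      omega
    have hr := kid_ref hFB hsg (mask1023 _) (mask1023 _) (mask1023 _) (mask1023 _) hk.chk (ih _ hji)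
    exact hr π φ' hE'

/-- The check of a node, for some record. -/
def NodeGood (tbl : ℕ → ℕ) (i : ℕ) : Prop := ∃ r, nodeOK tbl i (fbE (tbl i)) r = true

theorem checkT_good (tbl : ℕ → ℕ) (t : RT) : ∀ i j, checkT tbl t i j = true →
    ∀ x, i ≤ x → x < j → NodeGood tbl x := by
  induction t with
  | leaf r =>
    intro i j h x h1 h2
    have h' : (Bool.rec false (nodeOK tbl i (fbOf (Nat.mod (tbl i) 32) (Nat.shiftRight (tbl i) 5)) r)
        (Nat.beq (Nat.succ i) j) : Bool) = true := h
    cases h3 : Nat.beq (Nat.succ i) j with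
    | false => rw [h3] at h'; simp at h'
    | true =>
      rw [h3] at h'
      have h4 := beq_true h3
      have hx : x = i := by
        have : Nat.succ i = i + 1 := rfl
        omega
      subst hx
      exact ⟨r, h'⟩
  | node m l r ihl ihr =>
    intro i j h x h1 h2
    have h' : (Bool.rec false (checkT tbl r m j) (checkT tbl l i m) : Bool) = true := h
    cases h3 : checkT tbl l i m with
    | false => rw [h3] at h'; simp at h'
    | true =>
      rw [h3] at h'
      by_cases hx : x < m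
      · exact ihl i m h3 x h1 hx
      · exact ihr m j h' x (by omega) h2

theorem all_ref {H : Set (Fin 4 → α)} (hB : Bad H 2 6) {tbl : ℕ → ℕ} {N : ℕ}
    (hgood : ∀ i < N, NodeGood tbl i) : ∀ i < N, Ref 9 H (edgesOf (tbl i)) := by
  intro i
  induction i using Nat.strong_induction_on with
  | _ i ih =>
    intro hi
    obtain ⟨r, h⟩ := hgood i hi
    exact node_ref hB h (fun j hj => ih j hj (by omega))

/-- The conclusion of a complete certificate. -/
theorem cover_of_table (H : Finset (Fin 4 → α)) {tbl : ℕ → ℕ} {N r c0 : ℕ}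
    (hnu : ∀ L : List (Fin 4 → α), (∀ a ∈ L, a ∈ H) → L.Pairwise DisjT → L.length ≤ 2)
    (hgood : ∀ i < N, NodeGood tbl i) (hr : r < N) (hroot : edgesOf (tbl r) = [c0]) :
    ∃ C : Finset (Fin 4 × α), C.card ≤ 6 ∧ ∀ e ∈ H, ∃ i, (i, e i) ∈ C := by
  refine cover_of_ref (D := 9) H (c0 := c0) hnu ?_
  intro K hB
  have := all_ref hB hgood r hr
  rwa [hroot] at this

end Vale.Agent.Lib.P045.Fast
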